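import Vale.Agent.P032.H437.Ev3.R0
import Vale.Agent.P032.H437.Ev3.R1
import Vale.Agent.P032.H437.Ev3.R2
import Vale.Agent.P032.H437.Ev3.R3

namespace Vale.Agent.P032.H437.Ev3
open Vale.Agent.P032.H859.Rup Vale.Agent.P032.H437

theorem r1_0 : run E L 9715 e1_0 0 2 = true := run_n r2_0 r2_2

theorem r1_1 : run E L 9715 e1_1 1 2 = true := run_n r2_1 r2_3

theorem r0_0 : run E L 9715 e0_0 0 1 = true := run_n r1_0 r1_1

/-- the events: kind (0 forward, 1 backward), before, after, the closed set (learned clause,
its literals, column) -/
def evs : List Ev :=
  [.mk 0 20429440648 39783253640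
    [.mk 11 0x284528422840283f283d05 39783253640,
     .mk 36 0x284728422840283f283d05 39783417480],
   .mk 0 20429440648 39783417480
    [.mk 53 0x284a2849284728422840283d06 39783417480,
     .mk 54 0x284a2849284528422840283d06 39783253640,
     .mk 55 0x284d284a284928422840283d06 39783401096],
   .mk 0 39756793480 40014628488
    [.mk 72 0x2857285428522851284f05 40014628488,
     .mk 81 0x2859285428522851284f05 40014616200],
   .mk 1 21536048776 14030739104
    [.mk 85 0x28632860285e285d285b05 21536048776,
     .mk 95 0x28652860285e285d285b05 21536048781],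
   .mk 1 21536048776 14030902944
    [.mk 115 0x2868286728632860285e285b06 21536048776,
     .mk 145 0x2868286728652860285e285b06 21536048781,
     .mk 146 0x286b286828672860285e285b06 21536048773],
   .mk 0 46463846024 47530792584
    [.mk 147 0x287528722870286f286d05 47530792584,
     .mk 157 0x287728722870286f286d05 46457050760],
   .mk 0 47537587848 47530792584
    [.mk 158 0x2879287528722870286f05 47530792584,
     .mk 159 0x2879287728722870286f05 46457050760],
   .mk 0 47564854920 47433537090
    [.mk 180 0x2881287e287d287b04 47433537090],
   .mk 1 27988867400 28063044808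
    [.mk 199 0x288b288828862885288305 27988867400,
     .mk 220 0x288d288828862885288305 28659956040],
   .mk 1 28659956040 28063044808
    [.mk 230 0x2890288f288d28882886288506 28659956040,
     .mk 232 0x288f288b28882886288505 27988867400,
     .mk 233 0x28932890288f28882886288506 28592847176],
   .mk 1 28656343368 28063045960
    [.mk 257 0x289d289a28982897289505 28656343368,
     .mk 266 0x289f289a28982897289505 28606011720],
   .mk 0 27939062624 28464919816
    [.mk 275 0x28a928a628a428a328a105 28464919816,
     .mk 284 0x28ab28a628a428a328a105 28464919821],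
   .mk 0 28610151264 28464919816
    [.mk 304 0x28ae28ad28a928a628a428a306 28464919816,
     .mk 334 0x28ae28ad28ab28a628a428a306 28464919821,
     .mk 338 0x28b128ae28ad28a628a428a306 28464919813],
   .mk 1 28538903304 28461832904
    [.mk 339 0x28bb28b828b628b528b305 28538903304,
     .mk 347 0x28bd28b828b628b528b305 28538903240],
   .mk 1 28538903304 28461832968
    [.mk 348 0x28bf28bb28b828b628b305 28538903304,
     .mk 349 0x28bf28bd28b828b628b305 28538903240],
   .mk 0 27468544770 28472326920
    [.mk 415 0x28c728c428c328c104 28472326920]]

theorem evs_ok : allc (echk (getA DT) e0_0) evs = true := by decide +kernel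

/-- **the certificates** -/
theorem certs {A : AtK 2} (h : RK A) (hw : WK A) : ∀ v ∈ evs, v.cert A :=
  cert_of_echk (G := G49) (learned_K (w := true) h (fun _ => hw) hE hb0_0 r0_0) evs_ok

end Vale.Agent.P032.H437.Ev3
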