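import Vale.Agent.P032.H437.Ev3.B0
import Vale.Agent.P032.H437.Ev3.B1
import Vale.Agent.P032.H437.Ev3.B2
import Vale.Agent.P032.H437.Ev3.B3
import Vale.Agent.P032.H437.Ev3.D0
import Vale.Agent.P032.H437.Ev3.D1
import Vale.Agent.P032.H437.Ev3.D2
import Vale.Agent.P032.H437.Ev3.D3

namespace Vale.Agent.P032.H437.Ev3
open Vale.Agent.P032.H859.Rup Vale.Agent.P032.H437

def e1_0 : Tr := .n d0 d2

def e1_1 : Tr := .n d1 d3

def e0_0 : Tr := .n e1_0 e1_1

def g1_0 : Tr := .n b0 b2

theorem hb1_0 : allp (tst G49 true (getA DT)) g1_0 = true := allp_n hb2_0 hb2_2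

def g1_1 : Tr := .n b1 b3

theorem hb1_1 : allp (tst G49 true (getA DT)) g1_1 = true := allp_n hb2_1 hb2_3

def g0_0 : Tr := .n g1_0 g1_1

theorem hb0_0 : allp (tst G49 true (getA DT)) g0_0 = true := allp_n hb1_0 hb1_1

noncomputable def cnf : Nat → Nat := getC g0_0

/-- the mask of the positive literals -/
def E : Nat := mkE 5220

theorem hE : Even' E := even_mkE _

noncomputable def L : Nat → Nat := look cnf 9715 e0_0

end Vale.Agent.P032.H437.Ev3
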